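import Vale.Agent.Lib.P331.Log.Final

open MeasureTheory Finset
open scoped NNReal ENNReal
open Vale.Agent.Lib.P331 Vale.Agent.Lib.P331.Log

namespace Vale.Agent.Results.P331.A0_log

open Classical in
/-- Every matroid of rank at most `r` has a one-sample online rule against the almighty adversary
with ratio `1 / (252 * (1 + log₂ r))`. -/
theorem result {n : ℕ} (M : Matroid (Fin n)) (r : ℕ)
    (hr : ∀ I : Finset (Fin n), M.Indep (I : Set (Fin n)) → I.card ≤ r) :
    ∃ rule : OnlineRule n (SeedL (Nat.log 2 r) n),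
      (∀ s t v order, M.Indep ((rule.run s t v order : Finset (Fin n)) : Set (Fin n))) ∧
      ∀ D : Fin n → Measure ℝ≥0, (∀ e, IsProbabilityMeasure (D e)) →
      ∀ adv : (Fin n → ℝ≥0 × ℝ≥0) → SeedL (Nat.log 2 r) n → Equiv.Perm (Fin n),
        (1 / (252 * ((Nat.log 2 r : ℕ) + 1)) : ℝ≥0∞) *
            ∫⁻ ω, optM M (fun e => (ω e).2) ∂(jointLaw D) ≤
        ∫⁻ ω, (∑ t : SeedL (Nat.log 2 r) n, ∑ e ∈ rule.run (fun i => (ω i).1) t (fun i => (ω i).2)
            (List.ofFn (adv ω t)), ((ω e).2 : ℝ≥0∞)) /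
            (Fintype.card (SeedL (Nat.log 2 r) n) : ℝ≥0∞)
          ∂(jointLaw D) :=
  ⟨ruleL M (Nat.log 2 r), fun s t v order => ruleL_run_indep M _ s t v order,
    fun D hD adv => main_ineqL M r hr D hD adv⟩

end Vale.Agent.Results.P331.A0_log
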