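import Vale.Agent.Lib.P331.Final

open MeasureTheory Finset
open scoped NNReal ENNReal
open Vale.Agent.Lib.P331

namespace Vale.Agent.Results.P331.A_sparse

open Classical in
/-- Single-sample prophet inequality against the almighty adversary for linear matroids with at
most `k` nonzero entries per column: ratio `1/(4k)`. -/
theorem result {m n : ℕ} {F : Type} [Field F] (A : Matrix (Fin m) (Fin n) F) (k : ℕ) (hk : 0 < k)
    (hs : ∀ e, (univ.filter (fun i => A i e ≠ 0)).card ≤ k) :
    ∃ rule : OnlineRule n (Seed m n),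
      (∀ s r v order, ColIndep A (rule.run s r v order)) ∧
      ∀ D : Fin n → Measure ℝ≥0, (∀ e, IsProbabilityMeasure (D e)) →
      ∀ adv : (Fin n → ℝ≥0 × ℝ≥0) → Seed m n → Equiv.Perm (Fin n),
        (1 / (4 * k) : ℝ≥0∞) * ∫⁻ ω, optE A (fun e => (ω e).2) ∂(jointLaw D) ≤
        ∫⁻ ω, (∑ r : Seed m n, ∑ e ∈ rule.run (fun i => (ω i).1) r (fun i => (ω i).2)
            (List.ofFn (adv ω r)), ((ω e).2 : ℝ≥0∞)) / (Fintype.card (Seed m n) : ℝ≥0∞)
          ∂(jointLaw D) :=
  ⟨theRule A, fun s r v order => theRule_run_indep A s r v order,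
    fun D hD adv => main_ineq A k hk hs D hD adv⟩

end Vale.Agent.Results.P331.A_sparse
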